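import Vale.Agent.P298.H824.Ford
import Vale.Agent.P298.H25.CM
import Vale.Agent.P298.H766.Germ

/-!
# P298 (helper824): the hypotheses of helper766 are theorems
-/

namespace P298.H824

theorem fordT : Vale.Agent.P298.H766.FordT := fun _ I l hl hfin hreg => ford I l hl hfin hreg

theorem chainT : Vale.Agent.P298.H766.ChainT := fun _ φ g => chain φ g

theorem locT : Vale.Agent.P298.H766.LocT := fun _ φ g => constantCoeff_arc φ g

theorem cmT : Vale.Agent.P298.H766.CMT := fun _ a l ha hl hfin =>
  Vale.Agent.P298.H25.mem_of_mul_mem a l ha hl hfin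

end P298.H824
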