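import Vale.Agent.P298.H824.Fin

/-!
# P298 (helper824): the chain rule for formal arcs `C[[x_1..x_n]] → C[[s]]`
-/

namespace P298.H824

open MvPowerSeries

variable {n : ℕ} {K : Type*} [Field K]

/-- Every algebra homomorphism `K[[x]] → K[[s]]` preserves the constant coefficient. -/
theorem constantCoeff_arc (φ : MvPowerSeries (Fin n) K →ₐ[K] PowerSeries K)
    (g : MvPowerSeries (Fin n) K) :
    PowerSeries.constantCoeff (φ g) = MvPowerSeries.constantCoeff g := by
  by_contra hne
  -- `g - C c` with `c` the constant coefficient of `φ g` is a unit, but maps to a nonunit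
  set c := PowerSeries.constantCoeff (φ g) with hc
  have hu : IsUnit (g - algebraMap K (MvPowerSeries (Fin n) K) c) := by
    rw [MvPowerSeries.isUnit_iff_constantCoeff, isUnit_iff_ne_zero, map_sub]
    have : MvPowerSeries.constantCoeff (algebraMap K (MvPowerSeries (Fin n) K) c) = c := by
      rw [MvPowerSeries.algebraMap_apply]; simp
    rw [this]
    exact fun h => hne (sub_eq_zero.1 h).symm
  have hu2 := hu.map φ
  rw [map_sub, AlgHom.commutes, PowerSeries.isUnit_iff_constantCoeff, map_sub] at hu2
  have h2 : PowerSeries.constantCoeff (algebraMap K (PowerSeries K) c) = c := by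
    rw [PowerSeries.algebraMap_apply]; simp
  rw [h2, ← hc, sub_self] at hu2
  exact not_isUnit_zero hu2

/-- The defect of the chain rule. -/
noncomputable def chainDefect (φ : MvPowerSeries (Fin n) K →ₐ[K] PowerSeries K)
    (g : MvPowerSeries (Fin n) K) : PowerSeries K :=
  PowerSeries.derivative K (φ g) -
    ∑ i, φ (MvPowerSeries.pderiv K i g) * PowerSeries.derivative K (φ (X i))

theorem chainDefect_add (φ : MvPowerSeries (Fin n) K →ₐ[K] PowerSeries K)
    (g h : MvPowerSeries (Fin n) K) :
    chainDefect φ (g + h) = chainDefect φ g + chainDefect φ h := by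
  simp only [chainDefect, map_add, add_mul, Finset.sum_add_distrib]
  ring

theorem chainDefect_mul (φ : MvPowerSeries (Fin n) K →ₐ[K] PowerSeries K)
    (g h : MvPowerSeries (Fin n) K) :
    chainDefect φ (g * h) = φ g * chainDefect φ h + φ h * chainDefect φ g := by
  simp only [chainDefect, map_mul, Derivation.leibniz, smul_eq_mul, map_add, add_mul,
    Finset.sum_add_distrib, mul_sub, Finset.mul_sum, mul_assoc]
  ring

theorem chainDefect_C (φ : MvPowerSeries (Fin n) K →ₐ[K] PowerSeries K) (c : K) :
    chainDefect φ (C c) = 0 := by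
  have h1 : φ (C c) = PowerSeries.C c := by
    have := φ.commutes c
    rw [MvPowerSeries.algebraMap_apply, PowerSeries.algebraMap_apply] at this
    simpa using this
  simp [chainDefect, h1]

theorem chainDefect_X (φ : MvPowerSeries (Fin n) K →ₐ[K] PowerSeries K) (j : Fin n) :
    chainDefect φ (X j) = 0 := by
  classical
  rw [chainDefect, Finset.sum_eq_single j]
  · simp
  · intro b _ hb
    rw [MvPowerSeries.pderiv_X_of_ne (Ne.symm hb), map_zero, zero_mul]
  · intro h
    exact absurd (Finset.mem_univ _) h

theorem chainDefect_sum (φ : MvPowerSeries (Fin n) K →ₐ[K] PowerSeries K)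
    {ι : Type*} (s : Finset ι) (g : ι → MvPowerSeries (Fin n) K) :
    chainDefect φ (∑ i ∈ s, g i) = ∑ i ∈ s, chainDefect φ (g i) := by
  classical
  induction s using Finset.induction_on with
  | empty => simp [chainDefect]
  | insert a s ha ih => rw [Finset.sum_insert ha, Finset.sum_insert ha, chainDefect_add, ih]

theorem X_dvd_arc (φ : MvPowerSeries (Fin n) K →ₐ[K] PowerSeries K)
    {g : MvPowerSeries (Fin n) K} (hg : constantCoeff g = 0) :
    (PowerSeries.X : PowerSeries K) ∣ φ g := by
  rw [PowerSeries.X_dvd_iff, constantCoeff_arc, hg]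

theorem X_pow_dvd_chainDefect (φ : MvPowerSeries (Fin n) K →ₐ[K] PowerSeries K) (k : ℕ) :
    ∀ g : MvPowerSeries (Fin n) K, (PowerSeries.X : PowerSeries K) ^ k ∣ chainDefect φ g := by
  induction k with
  | zero => intro g; simp
  | succ k ih =>
    intro g
    obtain ⟨q, hq⟩ := exists_sum_X (g - C (constantCoeff g)) (by simp)
    have h1 : g = C (constantCoeff g) + ∑ i, X i * q i := by
      rw [← hq]; ring
    rw [h1, chainDefect_add, chainDefect_C, zero_add, chainDefect_sum]
    refine Finset.dvd_sum fun i _ => ?_
    rw [chainDefect_mul, chainDefect_X, mul_zero, add_zero, pow_succ, mul_comm (_ ^ k)]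
    exact mul_dvd_mul (X_dvd_arc φ (by simp)) (ih (q i))

/-- **Chain rule** for formal arcs. -/
theorem chain (φ : MvPowerSeries (Fin n) K →ₐ[K] PowerSeries K) (g : MvPowerSeries (Fin n) K) :
    PowerSeries.derivative K (φ g) =
      ∑ i, φ (MvPowerSeries.pderiv K i g) * PowerSeries.derivative K (φ (X i)) := by
  rw [← sub_eq_zero]
  change chainDefect φ g = 0
  ext k
  have := X_pow_dvd_chainDefect φ (k + 1) g
  rw [PowerSeries.X_pow_dvd_iff] at this
  rw [this k (Nat.lt_succ_self k), map_zero]

end P298.H824
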