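import Vale.Agent.P298.H824.Eig

/-!
# P298 (helper824): characters of a finite free algebra after splitting
-/

namespace P298.H824

open Module TensorProduct Polynomial

variable {A C R : Type*} [CommRing A] [CommRing C] [IsDomain C] [CommRing R] [Algebra A R]
  [Module.Free A R] [Module.Finite A R]

/-- If the generators of the finite free `A`-algebra `R` are roots of a polynomial that splits after
the base change `ν : A → C`, then the determinants of multiplications are products of characters. -/
theorem exists_arcs (ν : A →+* C) {ι : Type*} (c : ι → R)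
    (hc : Submodule.span A (Set.range c) = ⊤)
    (P : A[X]) (hP : ∀ i, aeval (c i) P = 0) (β : Multiset C)
    (hβ : P.map ν = (β.map fun b => X - Polynomial.C b).prod) :
    ∃ (r : ℕ) (φ : Fin r → (R →+* C)), (∀ i a, φ i (algebraMap A R a) = ν a) ∧
      ∀ u : R, ν (LinearMap.det (LinearMap.mul A R u)) = ∏ i, φ i u := by
  let k := FractionRing C
  let instAk : Algebra A k := ((algebraMap C k).comp ν).toAlgebra
  have hinj : Function.Injective (algebraMap C k) := IsFractionRing.injective C k
  have hν : ∀ a, algebraMap A k a = algebraMap C k (ν a) := fun a => rfl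
  let B := k ⊗[A] R
  let j : R →+* B := (Algebra.TensorProduct.includeRight : R →ₐ[A] k ⊗[A] R).toRingHom
  have hj : ∀ a : A, j (algebraMap A R a) = algebraMap k B (algebraMap A k a) := by
    intro a
    change (1 : k) ⊗ₜ[A] (algebraMap A R a) = (algebraMap A k a) ⊗ₜ[A] (1 : R)
    rw [Algebra.algebraMap_eq_smul_one, Algebra.algebraMap_eq_smul_one, TensorProduct.smul_tmul]
  have hS : Algebra.adjoin k (Set.range fun i => j (c i)) = ⊤ := by
    rw [eq_top_iff]
    rintro b -
    induction b using TensorProduct.induction_on with
    | zero => exact zero_mem _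
    | add x y hx hy => exact add_mem hx hy
    | tmul x y =>
      have hy : y ∈ Submodule.span A (Set.range c) := by rw [hc]; trivial
      have h1 : j y ∈ Algebra.adjoin k (Set.range fun i => j (c i)) := by
        induction hy using Submodule.span_induction with
        | mem z hz =>
          obtain ⟨i, rfl⟩ := hz
          exact Algebra.subset_adjoin ⟨i, rfl⟩
        | zero => rw [map_zero]; exact zero_mem _
        | add z w _ _ hz hw => rw [map_add]; exact add_mem hz hw
        | smul a z _ hz =>
          rw [Algebra.smul_def, map_mul, hj]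
          exact mul_mem (Subalgebra.algebraMap_mem _ _) hz
      have h2 : x ⊗ₜ[A] y = x • j y := by
        change x ⊗ₜ[A] y = x • ((1 : k) ⊗ₜ[A] y)
        rw [TensorProduct.smul_tmul', smul_eq_mul, mul_one]
      rw [h2]
      exact Subalgebra.smul_mem _ h1 x
  have hsplit0 : ∀ i, ((β.map (algebraMap C k)).map fun a => j (c i) - algebraMap k B a).prod = 0 := by
    intro i
    have h1 : (P.map ν).map (algebraMap C k) =
        ((β.map (algebraMap C k)).map fun a => X - Polynomial.C a).prod := by
      rw [hβ, Polynomial.map_multiset_prod, Multiset.map_map, Multiset.map_map]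
      congr 1
      refine Multiset.map_congr rfl fun b _ => ?_
      simp
    have h2 : aeval (j (c i)) ((P.map ν).map (algebraMap C k)) = 0 := by
      rw [Polynomial.map_map]
      have h3 : (algebraMap C k).comp ν = algebraMap A k := rfl
      rw [h3, Polynomial.aeval_map_algebraMap]
      have h4 : aeval (j (c i)) P = j (aeval (c i) P) :=
        Polynomial.aeval_algHom_apply (Algebra.TensorProduct.includeRight : R →ₐ[A] k ⊗[A] R) (c i) P
      rw [h4, hP, map_zero]
    rw [h1, map_multiset_prod, Multiset.map_map] at h2
    simpa using h2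
  obtain ⟨χ, hχ⟩ := exists_characters (k := k) (B := B) _ hS (finrank k B) B rfl (by
    rintro _ ⟨i, rfl⟩
    refine ⟨β.map (algebraMap C k), fun v => ?_⟩
    simp only [hsplit0 i]
    exact zero_smul B v)
  -- the characters take values in `C` on the generators
  have hgen : ∀ t i, ∃ b : C, χ t (j (c i)) = algebraMap C k b := by
    intro t i
    have h1 := congrArg (χ t) (hsplit0 i)
    rw [map_zero, map_multiset_prod, Multiset.map_map, Multiset.prod_eq_zero_iff,
      Multiset.mem_map] at h1
    obtain ⟨a, ha, h2⟩ := h1
    obtain ⟨b, -, rfl⟩ := Multiset.mem_map.1 ha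
    refine ⟨b, ?_⟩
    simp only [Function.comp_apply, map_sub, AlgHom.commutes] at h2
    exact sub_eq_zero.1 h2
  have hval : ∀ t (y : R), ∃ b : C, algebraMap C k b = χ t (j y) := by
    intro t y
    have hy : y ∈ Submodule.span A (Set.range c) := by rw [hc]; trivial
    induction hy using Submodule.span_induction with
    | mem z hz =>
      obtain ⟨i, rfl⟩ := hz
      obtain ⟨b, hb⟩ := hgen t i
      exact ⟨b, hb.symm⟩
    | zero => exact ⟨0, by rw [map_zero, map_zero, map_zero]⟩
    | add z w _ _ hz hw =>
      obtain ⟨b, hb⟩ := hz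
      obtain ⟨d, hd⟩ := hw
      exact ⟨b + d, by rw [map_add, map_add, map_add, hb, hd]⟩
    | smul a z _ hz =>
      obtain ⟨b, hb⟩ := hz
      refine ⟨ν a * b, ?_⟩
      rw [Algebra.smul_def, map_mul, map_mul, map_mul, hb, hj, AlgHom.commutes, hν]
      rfl
  choose φ hφ using hval
  refine ⟨finrank k B, fun t =>
    { toFun := φ t
      map_one' := hinj (by rw [hφ, map_one, map_one, map_one])
      map_mul' := fun x y => hinj (by rw [hφ, map_mul, map_mul, map_mul, hφ, hφ])
      map_zero' := hinj (by rw [hφ, map_zero, map_zero, map_zero])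
      map_add' := fun x y => hinj (by rw [hφ, map_add, map_add, map_add, hφ, hφ]) }, ?_, ?_⟩
  · intro t a
    apply hinj
    change algebraMap C k (φ t (algebraMap A R a)) = _
    rw [hφ, hj, AlgHom.commutes, hν]
    rfl
  · intro u
    apply hinj
    rw [map_prod]
    have h1 : ∀ t, algebraMap C k (φ t u) = χ t (j u) := fun t => hφ t u
    change _ = ∏ t, algebraMap C k (φ t u)
    rw [Finset.prod_congr rfl fun t _ => h1 t, ← hχ (j u), ← hν, ← LinearMap.det_baseChange]
    congr 1
    ext x
    change (1 : k) ⊗ₜ[A] (u * x) = ((1 : k) ⊗ₜ[A] u) * ((1 : k) ⊗ₜ[A] x)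
    rw [Algebra.TensorProduct.tmul_mul_tmul, mul_one]

end P298.H824
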