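import Mathlib

/-!
# P298 (helper824), COL-DET (b): joint eigencharacters of a commutative algebra
-/

namespace P298.H824

open Module

section

variable {k B : Type*} [Field k] [CommRing B] [Algebra k B]

theorem exists_kill {V : Type*} [AddCommGroup V] [Module B V] (s : B) (β : Multiset k)
    (w : V) (hw : w ≠ 0) (h : (β.map fun a => s - algebraMap k B a).prod • w = 0) :
    ∃ a : k, ∃ b : B, b • w ≠ 0 ∧ (s - algebraMap k B a) • b • w = 0 := by
  induction β using Multiset.induction_on with
  | empty => simp at h; exact absurd h hw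
  | cons a β ih =>
    by_cases h0 : (β.map fun a => s - algebraMap k B a).prod • w = 0
    · exact ih h0
    · refine ⟨a, _, h0, ?_⟩
      rw [Multiset.map_cons, Multiset.prod_cons, mul_smul] at h
      exact h

/-- A minimal nonzero submodule on which the generators act by scalars: every element of `B` acts
by a scalar. -/
theorem exists_line {V : Type*} [AddCommGroup V] [Module k V] [Module B V]
    [IsScalarTower k B V] [FiniteDimensional k V] [Nontrivial V] (S : Set B)
    (hS : Algebra.adjoin k S = ⊤)
    (hsplit : ∀ s ∈ S, ∃ β : Multiset k, ∀ v : V,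
      (β.map fun a => s - algebraMap k B a).prod • v = 0) :
    ∃ (χ : B →ₐ[k] k) (W : Submodule B V), finrank k W = 1 ∧ ∀ w ∈ W, ∀ b : B, b • w = χ b • w := by
  have hart : IsArtinian B V := isArtinian_of_tower k inferInstance
  obtain ⟨W, hW, -⟩ := (eq_bot_or_exists_atom_le (⊤ : Submodule B V)).resolve_left
    (by
      intro h
      have : Subsingleton V := (Submodule.subsingleton_iff B).1 (subsingleton_of_bot_eq_top h.symm)
      exact false_of_nontrivial_of_subsingleton V)
  obtain ⟨w0, hw0, hne⟩ := (Submodule.ne_bot_iff W).1 hW.1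
  -- an atom is contained in every submodule meeting it
  have hatom : ∀ U : Submodule B V, ∀ u ∈ W, u ≠ 0 → u ∈ U → W ≤ U := by
    intro U u hu hu0 huU
    rcases hW.le_iff.1 (inf_le_left : W ⊓ U ≤ W) with h | h
    · exfalso
      have : u ∈ (⊥ : Submodule B V) := by
        rw [← h]; exact ⟨hu, huU⟩
      exact hu0 ((Submodule.mem_bot B).1 this)
    · exact inf_eq_left.1 h
  have hscal : ∀ s ∈ S, ∃ a : k, ∀ w ∈ W, s • w = a • w := by
    intro s hs
    obtain ⟨β, hβ⟩ := hsplit s hs
    obtain ⟨a, b, hb, hab⟩ := exists_kill s β w0 hne (hβ w0)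
    refine ⟨a, ?_⟩
    have hle := hatom (LinearMap.ker (LinearMap.lsmul B V (s - algebraMap k B a))) (b • w0)
      (W.smul_mem b hw0) hb (by
        rw [LinearMap.mem_ker, LinearMap.lsmul_apply]
        exact hab)
    intro w hw
    have h1 := hle hw
    rw [LinearMap.mem_ker, LinearMap.lsmul_apply, sub_smul, algebraMap_smul, sub_eq_zero] at h1
    exact h1
  have hall : ∀ b : B, ∃ a : k, ∀ w ∈ W, b • w = a • w := by
    intro b
    have hb : b ∈ Algebra.adjoin k S := by rw [hS]; trivial
    induction hb using Algebra.adjoin_induction with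
    | mem x hx => exact hscal x hx
    | algebraMap r => exact ⟨r, fun w _ => algebraMap_smul B r w⟩
    | add x y _ _ hx hy =>
      obtain ⟨a, ha⟩ := hx
      obtain ⟨c, hc⟩ := hy
      exact ⟨a + c, fun w hw => by rw [add_smul, add_smul, ha w hw, hc w hw]⟩
    | mul x y _ _ hx hy =>
      obtain ⟨a, ha⟩ := hx
      obtain ⟨c, hc⟩ := hy
      refine ⟨a * c, fun w hw => ?_⟩
      rw [mul_smul, ha _ (W.smul_mem y hw), hc w hw, mul_smul]
  choose χ hχ using hall
  have huniq : ∀ a c : k, a • w0 = c • w0 → a = c := by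
    intro a c h
    rw [← sub_eq_zero, ← sub_smul, smul_eq_zero] at h
    exact sub_eq_zero.1 (h.resolve_right hne)
  let χ' : B →ₐ[k] k :=
    { toFun := χ
      map_one' := huniq _ _ (by rw [← hχ 1 w0 hw0, one_smul, one_smul])
      map_mul' := fun x y => huniq _ _ (by
        rw [← hχ _ w0 hw0, mul_smul, hχ x _ (W.smul_mem y hw0), hχ y w0 hw0, mul_smul])
      map_zero' := huniq _ _ (by rw [← hχ 0 w0 hw0, zero_smul, zero_smul])
      map_add' := fun x y => huniq _ _ (by
        rw [← hχ _ w0 hw0, add_smul, add_smul, hχ x w0 hw0, hχ y w0 hw0])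
      commutes' := fun r => huniq _ _ (by
        rw [← hχ _ w0 hw0, algebraMap_smul]
        rfl) }
  refine ⟨χ', W, ?_, fun w hw b => hχ b w hw⟩
  refine finrank_eq_one_iff'.2 ⟨⟨w0, hw0⟩, ?_, ?_⟩
  · intro h
    exact hne (congrArg Subtype.val h)
  · rintro ⟨w, hw⟩
    have h1 := hatom (Submodule.span B {w0}) w0 hw0 hne (Submodule.mem_span_singleton_self w0) hw
    obtain ⟨b, hb⟩ := Submodule.mem_span_singleton.1 h1
    refine ⟨χ b, ?_⟩
    apply Subtype.ext
    change χ b • w0 = w
    rw [← hb, hχ b w0 hw0]

universe u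

/-- **Joint eigencharacters.** -/
theorem exists_characters (S : Set B) (hS : Algebra.adjoin k S = ⊤) :
    ∀ (m : ℕ) (V : Type u) [AddCommGroup V] [Module k V] [Module B V] [IsScalarTower k B V]
      [FiniteDimensional k V], finrank k V = m →
      (∀ s ∈ S, ∃ β : Multiset k, ∀ v : V,
        (β.map fun a => s - algebraMap k B a).prod • v = 0) →
      ∃ χ : Fin m → (B →ₐ[k] k), ∀ b : B,
        LinearMap.det (Algebra.lsmul k k V b) = ∏ i, χ i b := by
  intro m
  induction m with
  | zero =>
    intro V _ _ _ _ _ hm _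
    have : Subsingleton V := Module.finrank_zero_iff.1 hm
    refine ⟨Fin.elim0, fun b => ?_⟩
    rw [Finset.univ_eq_empty, Finset.prod_empty]
    have : Algebra.lsmul k k V b = LinearMap.id := Subsingleton.elim _ _
    rw [this, LinearMap.det_id]
  | succ m ih =>
    intro V _ _ _ _ _ hm hsplit
    have : Nontrivial V := Module.nontrivial_of_finrank_pos (R := k) (by omega)
    obtain ⟨χ0, W, hW1, hW⟩ := exists_line (V := V) S hS hsplit
    have hfin : finrank k (V ⧸ W) = m := by
      have h1 := Submodule.finrank_quotient_add_finrank (W.restrictScalars k)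
      have h2 : finrank k (W.restrictScalars k) = 1 := hW1
      have h3 : finrank k (V ⧸ W.restrictScalars k) = finrank k (V ⧸ W) :=
        LinearEquiv.finrank_eq (Submodule.Quotient.restrictScalarsEquiv k W)
      omega
    obtain ⟨χ, hχ⟩ := ih (V ⧸ W) hfin (by
      intro s hs
      obtain ⟨β, hβ⟩ := hsplit s hs
      refine ⟨β, fun v => ?_⟩
      obtain ⟨v, rfl⟩ := Submodule.Quotient.mk_surjective W v
      rw [← Submodule.Quotient.mk_smul, hβ v, Submodule.Quotient.mk_zero])
    refine ⟨Fin.cons χ0 χ, fun b => ?_⟩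
    rw [Fin.prod_univ_succ, Fin.cons_zero]
    simp only [Fin.cons_succ]
    rw [← hχ b]
    set W' := W.restrictScalars k with hW'
    have he : W' ≤ W'.comap (Algebra.lsmul k k V b) := by
      intro w hw
      exact W.smul_mem b hw
    have := Module.Free.of_divisionRing k W'
    have := Module.Free.of_divisionRing k (V ⧸ W')
    rw [LinearMap.det_eq_det_mul_det W' _ he]
    congr 1
    · have h1 : LinearMap.restrict (p := W') (q := W') (Algebra.lsmul k k V b) he =
          χ0 b • LinearMap.id := by
        ext w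
        exact hW w.1 w.2 b
      rw [h1, LinearMap.det_smul, LinearMap.det_id, mul_one]
      have h2 : finrank k W' = 1 := hW1
      rw [h2, pow_one]

end

end P298.H824
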