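import Mathlib

/-!
# P298, package COL/FIN (helper824): finiteness over `C[[z]]`, chain rule for formal arcs
-/

namespace P298.H824

open MvPowerSeries

section Max

variable {n : ℕ} {K : Type*} [Field K]

/-- The part of `g` whose exponents have first nonzero index `i`. -/
noncomputable def part (i : Fin n) (g : MvPowerSeries (Fin n) K) : MvPowerSeries (Fin n) K :=
  open Classical in
  fun e => if e i ≠ 0 ∧ ∀ j < i, e j = 0 then MvPowerSeries.coeff e g else 0

theorem coeff_part (i : Fin n) (g : MvPowerSeries (Fin n) K) (e : Fin n →₀ ℕ) :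
    MvPowerSeries.coeff e (part i g) =
      open Classical in if e i ≠ 0 ∧ ∀ j < i, e j = 0 then MvPowerSeries.coeff e g else 0 := rfl

theorem X_dvd_part (i : Fin n) (g : MvPowerSeries (Fin n) K) : X i ∣ part i g := by
  rw [MvPowerSeries.X_dvd_iff]
  intro e he
  rw [coeff_part, if_neg]
  intro h
  exact h.1 he

theorem sum_part (g : MvPowerSeries (Fin n) K) (hg : constantCoeff g = 0) :
    ∑ i, part i g = g := by
  classical
  ext e
  rw [map_sum]
  by_cases he : e = 0
  · subst he
    rw [MvPowerSeries.coeff_zero_eq_constantCoeff_apply, hg]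
    exact Finset.sum_eq_zero fun i _ => by
      rw [coeff_part, if_neg]
      rintro ⟨h, -⟩
      exact h rfl
  · obtain ⟨i0, hi0⟩ : ∃ i, e i ≠ 0 := Finsupp.ne_iff.mp he
    have hne : (Finset.univ.filter fun i => e i ≠ 0).Nonempty := ⟨i0, by simpa using hi0⟩
    set m := (Finset.univ.filter fun i => e i ≠ 0).min' hne with hm
    have hm1 : e m ≠ 0 := by
      have := Finset.min'_mem _ hne
      simpa using this
    have hm2 : ∀ j < m, e j = 0 := by
      intro j hj
      by_contra h
      have := Finset.min'_le (Finset.univ.filter fun i => e i ≠ 0) j (by simpa using h)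
      exact absurd hj (not_lt.2 this)
    rw [Finset.sum_eq_single m]
    · rw [coeff_part, if_pos ⟨hm1, hm2⟩]
    · intro b _ hb
      rw [coeff_part, if_neg]
      rintro ⟨h1, h2⟩
      rcases lt_trichotomy b m with h | h | h
      · exact h1 (hm2 b h)
      · exact hb h
      · exact hm1 (h2 m h)
    · intro h
      exact absurd (Finset.mem_univ _) h

/-- A power series without constant term is in the ideal of the variables. -/
theorem exists_sum_X (g : MvPowerSeries (Fin n) K) (hg : constantCoeff g = 0) :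
    ∃ q : Fin n → MvPowerSeries (Fin n) K, g = ∑ i, X i * q i := by
  choose q hq using fun i => X_dvd_part i g
  refine ⟨q, ?_⟩
  rw [← Finset.sum_congr rfl fun i _ => hq i, sum_part g hg]

theorem mem_span_X_iff (g : MvPowerSeries (Fin n) K) :
    g ∈ Ideal.span (Set.range (X : Fin n → MvPowerSeries (Fin n) K)) ↔ constantCoeff g = 0 := by
  constructor
  · intro h
    have : Ideal.span (Set.range (X : Fin n → MvPowerSeries (Fin n) K)) ≤
        RingHom.ker (constantCoeff (σ := Fin n) (R := K)) := by
      rw [Ideal.span_le]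
      rintro _ ⟨i, rfl⟩
      simp [RingHom.mem_ker]
    exact this h
  · intro h
    obtain ⟨q, rfl⟩ := exists_sum_X g h
    exact Ideal.sum_mem _ fun i _ =>
      Ideal.mul_mem_right _ _ (Ideal.subset_span ⟨i, rfl⟩)

theorem maximalIdeal_eq_span_X :
    IsLocalRing.maximalIdeal (MvPowerSeries (Fin n) K) =
      Ideal.span (Set.range (X : Fin n → MvPowerSeries (Fin n) K)) := by
  ext g
  rw [mem_span_X_iff, IsLocalRing.mem_maximalIdeal, mem_nonunits_iff,
    MvPowerSeries.isUnit_iff_constantCoeff, isUnit_iff_ne_zero, not_not]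

theorem mem_maximalIdeal_iff (g : MvPowerSeries (Fin n) K) :
    g ∈ IsLocalRing.maximalIdeal (MvPowerSeries (Fin n) K) ↔ constantCoeff g = 0 := by
  rw [maximalIdeal_eq_span_X, mem_span_X_iff]

/-- Krull intersection for principal powers: `(∀ k, s ∈ I + (z^k)) → s ∈ I`. -/
theorem mem_of_forall_mem_sup_pow (I : Ideal (MvPowerSeries (Fin n) K))
    (z : MvPowerSeries (Fin n) K) (hz : constantCoeff z = 0) (s : MvPowerSeries (Fin n) K)
    (h : ∀ k : ℕ, s ∈ I ⊔ Ideal.span {z ^ k}) : s ∈ I := by
  by_cases hI : I = ⊤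
  · rw [hI]; trivial
  have : Nontrivial (MvPowerSeries (Fin n) K ⧸ I) := Ideal.Quotient.nontrivial_iff.2 hI
  have : IsLocalRing (MvPowerSeries (Fin n) K ⧸ I) :=
    IsLocalRing.of_surjective' (Ideal.Quotient.mk I) Ideal.Quotient.mk_surjective
  set zb := Ideal.Quotient.mk I z with hzb
  have hne : Ideal.span {zb} ≠ ⊤ := by
    intro ht
    rw [Ideal.span_singleton_eq_top] at ht
    obtain ⟨y, hy⟩ := ht.exists_right_inv
    obtain ⟨y, rfl⟩ := Ideal.Quotient.mk_surjective y
    rw [hzb, ← map_mul, ← map_one (Ideal.Quotient.mk I), Ideal.Quotient.eq] at hy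
    have hu : IsUnit (z * y - 1) := by
      rw [MvPowerSeries.isUnit_iff_constantCoeff]
      simp [hz]
    exact hI (Ideal.eq_top_of_isUnit_mem _ hy hu)
  have h0 := Ideal.iInf_pow_eq_bot_of_isLocalRing (Ideal.span {zb}) hne
  have h1 : Ideal.Quotient.mk I s ∈ ⨅ i : ℕ, Ideal.span {zb} ^ i := by
    rw [Ideal.mem_iInf]
    intro k
    have h2 := h k
    rw [Ideal.span_singleton_pow]
    obtain ⟨a, ha, b, hb, hab⟩ := Submodule.mem_sup.1 h2
    rw [← hab, map_add, Ideal.Quotient.eq_zero_iff_mem.2 ha, zero_add]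
    obtain ⟨c, rfl⟩ := Ideal.mem_span_singleton'.1 hb
    rw [map_mul, map_pow]
    exact Ideal.mul_mem_left _ _ (Ideal.mem_span_singleton_self _)
  rw [h0] at h1
  exact Ideal.Quotient.eq_zero_iff_mem.1 h1

end Max

section Nakayama

variable {K : Type*} [Field K]

/-- Complete Nakayama: a separated module over `K[[X]]` whose reduction is spanned by the `c i`
is spanned by the `c i`. -/
theorem span_eq_top_of_separated {M : Type*} [AddCommGroup M] [Module (PowerSeries K) M]
    (hsep : ∀ m : M, (∀ k : ℕ, ∃ m' : M, m = (PowerSeries.X : PowerSeries K) ^ k • m') → m = 0)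
    {ι : Type*} [Fintype ι] (c : ι → M)
    (hspan : ∀ m : M, ∃ (a : ι → K) (m' : M),
      m = ∑ i, (PowerSeries.C (a i) : PowerSeries K) • c i + (PowerSeries.X : PowerSeries K) • m') :
    Submodule.span (PowerSeries K) (Set.range c) = ⊤ := by
  choose a m' hm using hspan
  rw [eq_top_iff]
  rintro m -
  -- the sequence of remainders
  let r : ℕ → M := fun k => Nat.rec m (fun _ x => m' x) k
  have hr0 : r 0 = m := rfl
  have hrs : ∀ k, r (k + 1) = m' (r k) := fun k => rfl
  have hfin : ∀ k, m = ∑ i, (∑ j ∈ Finset.range k,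
      (PowerSeries.C (a (r j) i) * (PowerSeries.X : PowerSeries K) ^ j)) • c i +
      (PowerSeries.X : PowerSeries K) ^ k • r k := by
    intro k
    induction k with
    | zero => simp [hr0]
    | succ k ih =>
      conv_lhs => rw [ih, hm (r k)]
      rw [hrs]
      simp only [Finset.sum_range_succ, add_smul, Finset.sum_add_distrib, smul_add, pow_succ,
        Finset.smul_sum, mul_smul]
      rw [add_assoc]
      congr 1
      congr 1
      refine Finset.sum_congr rfl fun i _ => ?_
      rw [smul_smul, smul_smul, mul_comm]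
  have key : m = ∑ i, (PowerSeries.mk fun j => a (r j) i : PowerSeries K) • c i := by
    rw [← sub_eq_zero]
    apply hsep
    intro k
    choose q hq using fun i => (PowerSeries.X_pow_dvd_iff (n := k)
      (φ := (PowerSeries.mk fun j => a (r j) i : PowerSeries K) -
        ∑ j ∈ Finset.range k, (PowerSeries.C (a (r j) i) * (PowerSeries.X : PowerSeries K) ^ j))).2
      (by
        intro m hmk
        rw [map_sub, PowerSeries.coeff_mk, map_sum, Finset.sum_eq_single m]
        · simp
        · intro b _ hb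
          rw [PowerSeries.coeff_C_mul, PowerSeries.coeff_X_pow, if_neg (Ne.symm hb), mul_zero]
        · intro h
          exact absurd (Finset.mem_range.2 hmk) h)
    refine ⟨r k - ∑ i, q i • c i, ?_⟩
    rw [smul_sub, Finset.smul_sum]
    conv_lhs => rw [hfin k]
    have h2 : ∀ i, (PowerSeries.mk fun j => a (r j) i : PowerSeries K) • c i =
        (∑ j ∈ Finset.range k, (PowerSeries.C (a (r j) i) *
          (PowerSeries.X : PowerSeries K) ^ j)) • c i +
        (PowerSeries.X : PowerSeries K) ^ k • q i • c i := by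
      intro i
      rw [smul_smul, ← hq i, ← add_smul, add_sub_cancel]
    rw [Finset.sum_congr rfl fun i _ => h2 i, Finset.sum_add_distrib]
    abel
  rw [key]
  exact Submodule.sum_mem _ fun i _ => Submodule.smul_mem _ _ (Submodule.subset_span ⟨i, rfl⟩)

end Nakayama

section Fin

variable {n : ℕ} {K : Type*} [Field K]

/-- The `K`-algebra map `K[[X]] → K[[x_1..x_n]] / I`, `X ↦ z`. -/
noncomputable def zhom (I : Ideal (MvPowerSeries (Fin n) K)) (z : MvPowerSeries (Fin n) K)
    (hz : constantCoeff z = 0) : PowerSeries K →ₐ[K] MvPowerSeries (Fin n) K ⧸ I :=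
  (Ideal.Quotient.mkₐ K I).comp (PowerSeries.substAlgHom
    (PowerSeries.HasSubst.of_constantCoeff_zero hz))

theorem zhom_X (I : Ideal (MvPowerSeries (Fin n) K)) (z : MvPowerSeries (Fin n) K)
    (hz : constantCoeff z = 0) : zhom I z hz PowerSeries.X = Ideal.Quotient.mk I z := by
  rw [zhom, AlgHom.comp_apply, PowerSeries.substAlgHom_X]
  rfl

/-- **FIN**: if `K[[x]]/(I, z)` is finite-dimensional, then `K[[x]]/I` is a finite module over
`K[[X]]`, `X ↦ z`. -/
theorem zhom_finite (I : Ideal (MvPowerSeries (Fin n) K)) (z : MvPowerSeries (Fin n) K)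
    (hz : constantCoeff z = 0)
    (hfin : Module.Finite K (MvPowerSeries (Fin n) K ⧸ (I ⊔ Ideal.span {z}))) :
    (zhom I z hz).toRingHom.Finite := by
  let : Algebra (PowerSeries K) (MvPowerSeries (Fin n) K ⧸ I) := (zhom I z hz).toRingHom.toAlgebra
  change Module.Finite (PowerSeries K) (MvPowerSeries (Fin n) K ⧸ I)
  have hsmul : ∀ (a : PowerSeries K) (r : MvPowerSeries (Fin n) K ⧸ I),
      a • r = zhom I z hz a * r := fun a r => rfl
  obtain ⟨t, ht⟩ := Module.finite_def.1 hfin
  -- representatives
  have hrep : ∀ y : MvPowerSeries (Fin n) K ⧸ (I ⊔ Ideal.span {z}),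
      ∃ s : MvPowerSeries (Fin n) K, Ideal.Quotient.mk _ s = y := fun y =>
    Ideal.Quotient.mk_surjective y
  choose rep hrep using hrep
  have h1 := span_eq_top_of_separated (K := K) (M := MvPowerSeries (Fin n) K ⧸ I) ?_
    (fun y : t => Ideal.Quotient.mk I (rep y)) ?_
  · exact ⟨⟨(Set.range fun y : t => Ideal.Quotient.mk I (rep y)).toFinite.toFinset, by
      rw [Set.Finite.coe_toFinset]; exact h1⟩⟩
  · intro m hm
    obtain ⟨s, rfl⟩ := Ideal.Quotient.mk_surjective m
    rw [Ideal.Quotient.eq_zero_iff_mem]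
    apply mem_of_forall_mem_sup_pow I z hz
    intro k
    obtain ⟨m', hm'⟩ := hm k
    obtain ⟨s', rfl⟩ := Ideal.Quotient.mk_surjective m'
    rw [hsmul, map_pow, zhom_X, ← map_pow, ← map_mul, Ideal.Quotient.eq] at hm'
    have : s = (s - z ^ k * s') + s' * z ^ k := by ring
    rw [this]
    exact Submodule.add_mem_sup hm' (Ideal.mul_mem_left _ _ (Ideal.mem_span_singleton_self _))
  · intro m
    obtain ⟨s, rfl⟩ := Ideal.Quotient.mk_surjective m
    have h2 : (Ideal.Quotient.mk (I ⊔ Ideal.span {z}) s) ∈ Submodule.span K (t : Set _) := by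
      rw [ht]; trivial
    obtain ⟨f, hf⟩ := Submodule.mem_span_finset'.1 h2
    have h3 : Ideal.Quotient.mk (I ⊔ Ideal.span {z}) (s - ∑ y : t, C (f y) * rep y) = 0 := by
      rw [map_sub, ← hf, map_sum, sub_eq_zero]
      refine Finset.sum_congr rfl fun y _ => ?_
      rw [map_mul, hrep, Algebra.smul_def]
      rfl
    rw [Ideal.Quotient.eq_zero_iff_mem] at h3
    obtain ⟨a, ha, b, hb, hab⟩ := Submodule.mem_sup.1 h3
    obtain ⟨c, rfl⟩ := Ideal.mem_span_singleton'.1 hb
    refine ⟨f, Ideal.Quotient.mk I c, ?_⟩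
    have h4 : s = ∑ y : t, C (f y) * rep y + (a + c * z) := by
      rw [hab]; ring
    have h5 : Ideal.Quotient.mk I a = 0 := Ideal.Quotient.eq_zero_iff_mem.2 ha
    conv_lhs => rw [h4]
    rw [map_add, map_sum, map_add, h5, zero_add, hsmul, zhom_X, map_mul, mul_comm]
    congr 1
    refine Finset.sum_congr rfl fun y _ => ?_
    rw [hsmul, map_mul]
    congr 1
    have h6 := (zhom I z hz).commutes (f y)
    rw [PowerSeries.algebraMap_apply] at h6
    simp only [Algebra.algebraMap_self, RingHom.id_apply] at h6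
    rw [h6]
    rfl

end Fin

end P298.H824
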