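import Vale.Agent.P298.H824.Chain
import Vale.Agent.P298.H824.Core
import Vale.Agent.P298.H25.Det
import Vale.Agent.P298.H469.Puiseux

/-!
# P298 (helper824): the order formula for formal arcs
-/

namespace P298.H824

open MvPowerSeries

variable {n : ℕ}

/-- **FORD.** Let `I` be an ideal of `C[[x_1..x_n]]`, `l` a nonzerodivisor modulo `I` without
constant term, with `C[[x]]/(I, l)` finite-dimensional. There are finitely many formal arcs in
`V(I)` such that the colength of `(I, u)` is, up to the factor `N`, the sum of the orders of `u`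
along the arcs, for every `u`. -/
theorem ford (I : Ideal (MvPowerSeries (Fin n) ℂ)) (l : MvPowerSeries (Fin n) ℂ)
    (hl : constantCoeff l = 0)
    (hfin : Module.Finite ℂ (MvPowerSeries (Fin n) ℂ ⧸ (I ⊔ Ideal.span {l})))
    (hreg : ∀ x, l * x ∈ I → x ∈ I) :
    ∃ (N : ℕ), 0 < N ∧ ∃ (k : ℕ) (φ : Fin k → (MvPowerSeries (Fin n) ℂ →ₐ[ℂ] PowerSeries ℂ)),
      (∀ i, I ≤ RingHom.ker (φ i)) ∧ (∀ i, φ i l = PowerSeries.X ^ N) ∧
      ∀ (u : MvPowerSeries (Fin n) ℂ) (e : ℕ),
        (Module.Finite ℂ (MvPowerSeries (Fin n) ℂ ⧸ (I ⊔ Ideal.span {u})) ∧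
          Module.finrank ℂ (MvPowerSeries (Fin n) ℂ ⧸ (I ⊔ Ideal.span {u})) = e) ↔
        ∑ i, (φ i u).order = ((N * e : ℕ) : ℕ∞) := by
  classical
  let τ := zhom I l hl
  have hτ := zhom_finite I l hl hfin
  let instA : Algebra (PowerSeries ℂ) (MvPowerSeries (Fin n) ℂ ⧸ I) := τ.toRingHom.toAlgebra
  have hfinA : Module.Finite (PowerSeries ℂ) (MvPowerSeries (Fin n) ℂ ⧸ I) := hτ
  have hsmul : ∀ (a : PowerSeries ℂ) (r : MvPowerSeries (Fin n) ℂ ⧸ I), a • r = τ a * r :=
    fun a r => rfl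
  have htower : IsScalarTower ℂ (PowerSeries ℂ) (MvPowerSeries (Fin n) ℂ ⧸ I) := by
    refine IsScalarTower.of_algebraMap_eq fun c => ?_
    have := τ.commutes c
    change _ = τ (algebraMap ℂ (PowerSeries ℂ) c)
    rw [this]
  have htf : Module.IsTorsionFree (PowerSeries ℂ) (MvPowerSeries (Fin n) ℂ ⧸ I) := by
    refine Module.IsTorsionFree.of_smul_eq_zero fun a m h => ?_
    by_cases ha : a = 0
    · exact Or.inl ha
    right
    obtain ⟨j, v, rfl⟩ := IsDiscreteValuationRing.eq_unit_mul_pow_irreducible ha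
      (PowerSeries.X_irreducible (R := ℂ))
    have hX : ∀ (i : ℕ) (m : MvPowerSeries (Fin n) ℂ ⧸ I),
        (PowerSeries.X : PowerSeries ℂ) ^ i • m = 0 → m = 0 := by
      intro i
      induction i with
      | zero => intro m hm; simpa using hm
      | succ i ih =>
        intro m hm
        rw [pow_succ, mul_smul] at hm
        have h1 := ih _ hm
        obtain ⟨s, rfl⟩ := Ideal.Quotient.mk_surjective m
        rw [hsmul] at h1
        have h2 : τ PowerSeries.X = Ideal.Quotient.mk I l := zhom_X I l hl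
        rw [h2, ← map_mul, Ideal.Quotient.eq_zero_iff_mem] at h1
        exact Ideal.Quotient.eq_zero_iff_mem.2 (hreg s h1)
    rw [mul_smul] at h
    have h3 : (PowerSeries.X : PowerSeries ℂ) ^ j • m = 0 := by
      have h4 : (PowerSeries.X : PowerSeries ℂ) ^ j • m =
          ((v⁻¹ : (PowerSeries ℂ)ˣ) : PowerSeries ℂ) •
            ((v : PowerSeries ℂ) • ((PowerSeries.X : PowerSeries ℂ) ^ j • m)) := by
        rw [← mul_smul ((v⁻¹ : (PowerSeries ℂ)ˣ) : PowerSeries ℂ), Units.inv_mul, one_smul]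
      rw [h4, h]
      rw [hsmul, mul_zero]
    exact hX j m h3
  have hfree : Module.Free (PowerSeries ℂ) (MvPowerSeries (Fin n) ℂ ⧸ I) :=
    Module.free_of_finite_type_torsion_free'
  obtain ⟨t, ht⟩ := Module.finite_def.1 hfinA
  let c : t → MvPowerSeries (Fin n) ℂ ⧸ I := fun y => y.1
  have hc : Submodule.span (PowerSeries ℂ) (Set.range c) = ⊤ := by
    rw [← ht]
    congr 1
    ext y
    simp [c]
  let P : Polynomial (PowerSeries ℂ) := ∏ y : t, minpoly (PowerSeries ℂ) (c y)
  have hPm : P.Monic := Polynomial.monic_prod_of_monic _ _ fun y _ =>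
    minpoly.monic (Algebra.IsIntegral.isIntegral (c y))
  have hP : ∀ y, Polynomial.aeval (c y) P = 0 := by
    intro y
    rw [map_prod]
    exact Finset.prod_eq_zero (Finset.mem_univ y) (minpoly.aeval _ _)
  obtain ⟨N, hN, β, hβ⟩ := Vale.Agent.P298.H469.exists_puiseux P hPm
  obtain ⟨r, φ, hφ1, hφ2⟩ := exists_arcs
    (PowerSeries.expand N hN : PowerSeries ℂ →ₐ[ℂ] PowerSeries ℂ).toRingHom c hc P hP β hβ
  have hφC : ∀ i (a : ℂ), φ i (algebraMap ℂ (MvPowerSeries (Fin n) ℂ ⧸ I) a) =
      algebraMap ℂ (PowerSeries ℂ) a := by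
    intro i a
    have h1 : algebraMap ℂ (MvPowerSeries (Fin n) ℂ ⧸ I) a =
        algebraMap (PowerSeries ℂ) (MvPowerSeries (Fin n) ℂ ⧸ I) (algebraMap ℂ (PowerSeries ℂ) a) :=
      IsScalarTower.algebraMap_apply _ _ _ _
    rw [h1, hφ1]
    exact (PowerSeries.expand N hN : PowerSeries ℂ →ₐ[ℂ] PowerSeries ℂ).commutes a
  let ψ : Fin r → (MvPowerSeries (Fin n) ℂ →ₐ[ℂ] PowerSeries ℂ) := fun i =>
    { toRingHom := (φ i).comp (Ideal.Quotient.mk I)
      commutes' := fun a => hφC i a }
  have hψ : ∀ i u, ψ i u = φ i (Ideal.Quotient.mk I u) := fun i u => rfl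
  refine ⟨N, Nat.pos_of_ne_zero hN, r, ψ, ?_, ?_, ?_⟩
  · intro i x hx
    rw [RingHom.mem_ker, hψ, Ideal.Quotient.eq_zero_iff_mem.2 hx, map_zero]
  · intro i
    have h2 : algebraMap (PowerSeries ℂ) (MvPowerSeries (Fin n) ℂ ⧸ I) PowerSeries.X =
        Ideal.Quotient.mk I l := zhom_X I l hl
    rw [hψ, ← h2, hφ1]
    exact PowerSeries.expand_X N hN
  · intro u e
    set T := LinearMap.mul (PowerSeries ℂ) (MvPowerSeries (Fin n) ℂ ⧸ I) (Ideal.Quotient.mk I u)
      with hT
    have hdet := hφ2 (Ideal.Quotient.mk I u)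
    have hord : ∑ i, (ψ i u).order = N • (LinearMap.det T).order := by
      have h1 := congrArg PowerSeries.order hdet
      rw [PowerSeries.order_prod] at h1
      rw [show (∑ i, (ψ i u).order) = ∑ i, (φ i (Ideal.Quotient.mk I u)).order from rfl, ← h1]
      exact PowerSeries.order_expand N hN _
    have hquot := Vale.Agent.P298.H25.finrank_quot_range T e
    -- the quotient by the range of multiplication
    have hrange : ∀ s : MvPowerSeries (Fin n) ℂ,
        Ideal.Quotient.mk I s ∈ LinearMap.range T ↔ s ∈ I ⊔ Ideal.span {u} := by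
      intro s
      constructor
      · rintro ⟨y, hy⟩
        obtain ⟨y, rfl⟩ := Ideal.Quotient.mk_surjective y
        have hy' : Ideal.Quotient.mk I (u * y) = Ideal.Quotient.mk I s := by
          rw [map_mul]; exact hy
        rw [Ideal.Quotient.eq] at hy'
        have : s = -(u * y - s) + y * u := by ring
        rw [this]
        exact Submodule.add_mem_sup (I.neg_mem hy')
          (Ideal.mul_mem_left _ _ (Ideal.mem_span_singleton_self _))
      · intro hs
        obtain ⟨a, ha, b, hb, rfl⟩ := Submodule.mem_sup.1 hs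
        obtain ⟨d, rfl⟩ := Ideal.mem_span_singleton'.1 hb
        refine ⟨Ideal.Quotient.mk I d, ?_⟩
        rw [map_add, Ideal.Quotient.eq_zero_iff_mem.2 ha, zero_add, map_mul, mul_comm]
        rfl
    let f : MvPowerSeries (Fin n) ℂ →ₗ[ℂ] ((MvPowerSeries (Fin n) ℂ ⧸ I) ⧸ LinearMap.range T) :=
      (LinearMap.restrictScalars ℂ (LinearMap.range T).mkQ) ∘ₗ
        (Ideal.Quotient.mkₐ ℂ I).toLinearMap
    have hf : ∀ s, f s = Submodule.Quotient.mk (Ideal.Quotient.mk I s) := fun s => rfl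
    have hfs : Function.Surjective f := by
      intro y
      obtain ⟨y, rfl⟩ := Submodule.Quotient.mk_surjective _ y
      obtain ⟨s, rfl⟩ := Ideal.Quotient.mk_surjective y
      exact ⟨s, rfl⟩
    have hker : LinearMap.ker f = (I ⊔ Ideal.span {u}).restrictScalars ℂ := by
      ext s
      rw [LinearMap.mem_ker, hf, Submodule.Quotient.mk_eq_zero, hrange]
      rfl
    let E : (MvPowerSeries (Fin n) ℂ ⧸ (I ⊔ Ideal.span {u})) ≃ₗ[ℂ]
        ((MvPowerSeries (Fin n) ℂ ⧸ I) ⧸ LinearMap.range T) :=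
      (Submodule.Quotient.restrictScalarsEquiv ℂ (I ⊔ Ideal.span {u})).symm ≪≫ₗ
        (Submodule.quotEquivOfEq _ _ hker.symm) ≪≫ₗ (f.quotKerEquivOfSurjective hfs)
    rw [hord]
    have h3 : (N • (LinearMap.det T).order = ((N * e : ℕ) : ℕ∞)) ↔ (LinearMap.det T).order = e := by
      rw [nsmul_eq_mul]
      constructor
      · intro h
        rcases eq_or_ne (LinearMap.det T).order ⊤ with h4 | h4
        · rw [h4] at h
          have : ((N : ℕ∞)) * ⊤ = ⊤ := ENat.mul_top (by exact_mod_cast hN)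
          rw [this] at h
          exact absurd h.symm (ENat.natCast_ne_top _)
        · obtain ⟨q, hq⟩ := ENat.ne_top_iff_exists.1 h4
          rw [← hq] at h ⊢
          norm_cast at h ⊢
          exact Nat.eq_of_mul_eq_mul_left (Nat.pos_of_ne_zero hN) h
      · intro h
        rw [h]
        norm_cast
    rw [h3, ← hquot]
    constructor
    · rintro ⟨h4, h5⟩
      exact ⟨Module.Finite.equiv E, by rw [← h5]; exact (LinearEquiv.finrank_eq E).symm⟩
    · rintro ⟨h4, h5⟩
      exact ⟨Module.Finite.equiv E.symm, by rw [← h5]; exact LinearEquiv.finrank_eq E⟩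

end P298.H824
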